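import Vale.Agent.P097.H529.RecMaj
import Vale.Agent.P097.H128.W.Rec

/-!
# P097 / block (W): the octave sums at a record window

`V j` = signed value at the octave `2 ^ j r` (`j = 0` finest).
`rec_pos`: at a record, `max (V j) 0 ≤ (L + 1) V0 √H0 ^ j`.
`rec_oct`: the lateral bounds `K (C (M+j)^2)^N (1 + max (V j) 0) + exp (K (C (M+j)^2)^a)` are at
most `B (2^(3/4))^j`; `rec_sum'`: their sum with weights `2 ^ (-j)` (with the macroscopic bound `A` at
the top octave) is at most `B' + 4 * 2^(-n) * A`.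
-/

open Finset

namespace Vale.Agent.P097.H529

open Vale.Agent.P097.H128.W

/-- positive part of the coarser octaves at a record -/
theorem rec_pos {V : ℕ → ℝ} {V0 H0 L : ℝ} {n : ℕ} (hL : 1 ≤ L)
    (h : Ch (fun i => V (n - i)) V0 H0 0 n) (h0 : V 0 ≤ V0)
    (hr : ∀ j ≤ n, |V j| ≤ L * |V 0| + V0) :
    ∀ j ≤ n, max (V j) 0 ≤ (L + 1) * V0 * √H0 ^ j := by
  intro j hj
  have hV0 := h.V00
  have hs1 : 1 ≤ √H0 := by
    rw [← Real.sqrt_one]; exact Real.sqrt_le_sqrt h.H1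
  have hs : 1 ≤ √H0 ^ j := one_le_pow₀ hs1
  have hpos : 0 < (L + 1) * V0 := by positivity
  by_cases hc : |V 0| ≤ V0
  · have h1 := hr j hj
    have h2 : L * |V 0| ≤ L * V0 := mul_le_mul_of_nonneg_left hc (by linarith)
    have h3 : V j ≤ (L + 1) * V0 := by
      have := le_abs_self (V j); linarith
    apply max_le
    · calc V j ≤ (L + 1) * V0 * 1 := by linarith
        _ ≤ _ := mul_le_mul_of_nonneg_left hs hpos.le
    · positivity
  · rw [not_le] at hc
    have hneg : V 0 < -V0 := by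
      rcases lt_abs.1 hc with h1 | h1
      · linarith
      · linarith
    have hn := h.neg
    have e0 : (fun i => -(fun i => V (n - i)) i) n = -V 0 := by simp
    have hrr : ∀ i, 0 ≤ i → i ≤ n → |(fun i => -(fun i => V (n - i)) i) i| ≤
        (L + 1) * (fun i => -(fun i => V (n - i)) i) n := by
      intro i _ hi
      have h1 := hr (n - i) (by omega)
      rw [e0]
      simp only [abs_neg]
      have h2 : |V 0| = -V 0 := abs_of_neg (by linarith)
      rw [h2] at h1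
      linarith
    have hm : V0 < (fun i => -(fun i => V (n - i)) i) n := by
      rw [e0]; linarith
    have e2 : ∀ i ≤ n, (fun i => -(fun i => V (n - i)) i) (n - i) = -V i := by
      intro i hi
      have : n - (n - i) = i := by omega
      simp only [this]
    rcases rec_pt hn (Nat.zero_le n) (by linarith : (1 : ℝ) ≤ L + 1) hm hrr with hA |
      ⟨l₀, hl1, hl2, hl3, hl4, hl5⟩
    · have h1 := hA (n - j) (Nat.zero_le _) (by omega)
      have e3 : n - (n - j) = j := by omega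
      rw [e3] at h1
      rw [max_eq_right (by linarith)]
      positivity
    · have e3 : n - (n - j) = j := by omega
      by_cases hjl : j < l₀
      · have h1 := hl4 j hjl
        rw [e3] at h1
        rw [max_eq_right (by linarith)]
        positivity
      · rw [not_lt] at hjl
        have h1 := hl5 j (by omega) hjl
        rw [e3, abs_neg] at h1
        have h2 : √(L + 1) ≤ L + 1 := by
          rw [Real.sqrt_le_left (by linarith)]
          nlinarith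
        apply max_le
        · calc V j ≤ |V j| := le_abs_self _
            _ ≤ √(L + 1) * V0 * √H0 ^ j := h1
            _ ≤ _ := by gcongr
        · positivity

/-- the lateral bound at the octave `j` -/
noncomputable def lb (K C M N a : ℝ) (V : ℕ → ℝ) (j : ℕ) : ℝ :=
  K * (C * (M + j) ^ 2) ^ N * (1 + max (V j) 0) + Real.exp (K * (C * (M + j) ^ 2) ^ a)

theorem lb_nonneg {K C M N a : ℝ} {V : ℕ → ℝ} {j : ℕ} (hK : 0 ≤ K) (hC : 0 ≤ C) :
    0 ≤ lb K C M N a V j := by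
  unfold lb
  have : 0 ≤ max (V j) 0 := le_max_right _ _
  positivity

/-- polylogarithmic bounds of the lateral bounds -/
theorem lb_le {C M K N a V1 H0 : ℝ} (hC : 0 < C) (hM : 0 < M) (hK : 0 ≤ K) (hN : 0 ≤ N)
    (ha0 : 0 ≤ a) (ha : 2 * a < 1) (hV1 : 0 ≤ V1) (hH0 : 0 ≤ H0)
    (hH : H0 < (2 : ℝ) ^ ((3 : ℝ) / 2)) :
    ∃ B : ℝ, 0 < B ∧ ∀ (V : ℕ → ℝ) (j : ℕ), max (V j) 0 ≤ V1 * √H0 ^ j →
      lb K C M N a V j ≤ B * ((2 : ℝ) ^ ((3 : ℝ) / 4)) ^ j := by
  have hl2 : 0 < Real.log 2 := Real.log_pos (by norm_num)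
  have hl2' : Real.log 2 < 1 := by
    have := Real.log_two_lt_d9; linarith
  set c : ℝ := Real.log 2 ^ 2 / C with hc
  have hc0 : 0 < c := by positivity
  obtain ⟨B, hB, h1⟩ := rec_real (N := N) hc0 hM hK ha hV1 hH0 hH
  refine ⟨B, hB, fun V j hV => ?_⟩
  set z : ℝ := 2 ^ j - 1 with hz
  have hz1 : 1 + z = 2 ^ j := by rw [hz]; ring
  have hz0 : 0 ≤ z := by
    have : (1 : ℝ) ≤ 2 ^ j := one_le_pow₀ (by norm_num)
    rw [hz]; linarith
  have hlog : Real.log (1 + z) = j * Real.log 2 := by rw [hz1, Real.log_pow]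
  -- `C (M + j)^2 ≤ (om c M z)⁻¹`
  have hom : ∀ s : ℝ, 0 ≤ s → (C * (M + j) ^ 2) ^ s ≤ om c M z ^ (-s) := by
    intro s hs
    have hj : (0 : ℝ) ≤ j := Nat.cast_nonneg j
    have e1 : om c M z ^ (-s) = (C * ((M + j * Real.log 2) / Real.log 2) ^ 2) ^ s := by
      rw [Real.rpow_neg (om_pos hc0 hM hz0).le, ← Real.inv_rpow (om_pos hc0 hM hz0).le]
      congr 1
      unfold om
      rw [hlog, hc]
      have : 0 < M + j * Real.log 2 := by positivity
      field_simp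
    rw [e1]
    apply Real.rpow_le_rpow (by positivity) _ hs
    apply mul_le_mul_of_nonneg_left _ hC.le
    apply pow_le_pow_left₀ (by positivity)
    rw [le_div_iff₀ hl2]
    nlinarith
  have h2 := h1 z hz0 j (by rw [hz1])
  have e3 : (1 + z) ^ ((3 : ℝ) / 4) = ((2 : ℝ) ^ ((3 : ℝ) / 4)) ^ j := by
    rw [hz1, ← Real.rpow_natCast, ← Real.rpow_mul (by norm_num), ← Real.rpow_natCast,
      ← Real.rpow_mul (by norm_num), mul_comm]
  rw [← e3]
  refine le_trans ?_ h2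
  unfold lb
  have h3 : 0 ≤ max (V j) 0 := le_max_right _ _
  have h4 := hom N hN
  have h5 := hom a ha0
  have h6 : 0 ≤ om c M z ^ (-N) := Real.rpow_nonneg (om_pos hc0 hM hz0).le _
  have h7 : (0 : ℝ) ≤ (C * (M + j) ^ 2) ^ N := by positivity
  gcongr

/-- geometric sum with ratio `2^(3/4) / 2` -/
theorem geo_sum (n : ℕ) : ∑ j ∈ range n, ((2 : ℝ) ^ ((3 : ℝ) / 4)) ^ (j + 1) * (1 / 2 : ℝ) ^ j ≤ 14 := by
  set q : ℝ := (2 : ℝ) ^ ((3 : ℝ) / 4) with hq
  have hq0 : 0 < q := by positivity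
  have hq4 : q ^ 4 = 8 := by
    rw [hq, ← Real.rpow_natCast, ← Real.rpow_mul (by norm_num)]
    norm_num
  have hqu : q ≤ 17 / 10 := by
    by_contra hcon
    rw [not_le] at hcon
    have : (17 / 10 : ℝ) ^ 4 < q ^ 4 := pow_lt_pow_left₀ hcon (by norm_num) (by norm_num)
    rw [hq4] at this
    norm_num at this
  have h1 : ∀ j : ℕ, q ^ (j + 1) * (1 / 2 : ℝ) ^ j = q * (q / 2) ^ j := by
    intro j
    rw [pow_succ, div_pow, div_pow, one_pow]
    ring
  have h2 : ∑ j ∈ range n, (q / 2) ^ j ≤ (1 - q / 2)⁻¹ := by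
    have hsum := (summable_geometric_of_lt_one (r := q / 2) (by positivity) (by linarith))
    rw [← tsum_geometric_of_lt_one (by positivity) (by linarith)]
    exact hsum.sum_le_tsum _ (fun _ _ => by positivity)
  have h3 : (1 - q / 2)⁻¹ ≤ 20 / 3 := by
    rw [inv_le_comm₀ (by linarith) (by norm_num)]
    linarith
  calc ∑ j ∈ range n, q ^ (j + 1) * (1 / 2 : ℝ) ^ j = q * ∑ j ∈ range n, (q / 2) ^ j := by
        rw [Finset.mul_sum]; exact Finset.sum_congr rfl fun j _ => h1 j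
    _ ≤ (17 / 10) * (20 / 3) := by
        apply mul_le_mul hqu (h2.trans h3) (Finset.sum_nonneg fun _ _ => by positivity) (by norm_num)
    _ ≤ 14 := by norm_num

/-- **the octave sums at a record window** -/
theorem rec_oct {C M K N a V0 H0 L : ℝ} (hC : 0 < C) (hM : 0 < M) (hK : 0 ≤ K) (hN : 0 ≤ N)
    (ha0 : 0 ≤ a) (ha : 2 * a < 1) (hV0 : 0 < V0) (hL : 1 ≤ L) (hH0 : 0 ≤ H0)
    (hH : H0 < (2 : ℝ) ^ ((3 : ℝ) / 2)) :
    ∃ B : ℝ, 0 < B ∧ ∀ (V : ℕ → ℝ) (n : ℕ), Ch (fun i => V (n - i)) V0 H0 0 n → V 0 ≤ V0 →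
      (∀ j ≤ n, |V j| ≤ L * |V 0| + V0) →
      (∀ j ≤ n, lb K C M N a V j ≤ B * ((2 : ℝ) ^ ((3 : ℝ) / 4)) ^ j) ∧
      ∀ A : ℝ, 0 ≤ A → ∀ f : ℕ → ℝ, (∀ j < n, f j ≤ lb K C M N a V j) →
        f n ≤ lb K C M N a V n + A →
        f 0 + 2 * ∑ j ∈ range n, f (j + 1) * (1 / 2 : ℝ) ^ j ≤ 29 * B + 4 * (1 / 2 : ℝ) ^ n * A := by
  obtain ⟨B, hB, h1⟩ := lb_le (V1 := (L + 1) * V0) hC hM hK hN ha0 ha (by positivity) hH0 hH
  refine ⟨B, hB, fun V n hch h0 hr => ?_⟩
  have h2 : ∀ j ≤ n, lb K C M N a V j ≤ B * ((2 : ℝ) ^ ((3 : ℝ) / 4)) ^ j :=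
    fun j hj => h1 V j (rec_pos hL hch h0 hr j hj)
  refine ⟨h2, fun A hA f hf hfn => ?_⟩
  have hsum : 2 * ∑ j ∈ range n, (B * ((2 : ℝ) ^ ((3 : ℝ) / 4)) ^ (j + 1)) * (1 / 2 : ℝ) ^ j ≤
      28 * B := by
    have h3 := geo_sum n
    have h4 : ∑ j ∈ range n, (B * ((2 : ℝ) ^ ((3 : ℝ) / 4)) ^ (j + 1)) * (1 / 2 : ℝ) ^ j =
        B * ∑ j ∈ range n, ((2 : ℝ) ^ ((3 : ℝ) / 4)) ^ (j + 1) * (1 / 2 : ℝ) ^ j := by
      rw [Finset.mul_sum]; exact Finset.sum_congr rfl fun j _ => by ring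
    rw [h4]
    nlinarith
  rcases Nat.eq_zero_or_pos n with hn | hn
  · subst hn
    have h3 := h2 0 le_rfl
    simp only [range_zero, Finset.sum_empty, mul_zero, add_zero, pow_zero, mul_one] at h3 ⊢
    linarith
  · obtain ⟨k, rfl⟩ : ∃ k, n = k + 1 := ⟨n - 1, by omega⟩
    rw [Finset.sum_range_succ] at hsum ⊢
    have h3 : f 0 ≤ B := by
      have := (hf 0 hn).trans (h2 0 (Nat.zero_le _))
      simpa using this
    have h4 : ∑ j ∈ range k, f (j + 1) * (1 / 2 : ℝ) ^ j ≤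
        ∑ j ∈ range k, (B * ((2 : ℝ) ^ ((3 : ℝ) / 4)) ^ (j + 1)) * (1 / 2 : ℝ) ^ j := by
      apply Finset.sum_le_sum
      intro j hj
      rw [Finset.mem_range] at hj
      apply mul_le_mul_of_nonneg_right _ (by positivity)
      exact (hf (j + 1) (by omega)).trans (h2 (j + 1) (by omega))
    have h5 : f (k + 1) * (1 / 2 : ℝ) ^ k ≤
        (B * ((2 : ℝ) ^ ((3 : ℝ) / 4)) ^ (k + 1)) * (1 / 2 : ℝ) ^ k + (1 / 2 : ℝ) ^ k * A := by
      have h6 : f (k + 1) ≤ B * ((2 : ℝ) ^ ((3 : ℝ) / 4)) ^ (k + 1) + A :=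
        hfn.trans (by linarith [h2 (k + 1) le_rfl])
      have h7 : (0 : ℝ) ≤ (1 / 2 : ℝ) ^ k := by positivity
      nlinarith [mul_le_mul_of_nonneg_right h6 h7]
    have h8 : 4 * (1 / 2 : ℝ) ^ (k + 1) * A = 2 * ((1 / 2 : ℝ) ^ k * A) := by
      rw [pow_succ]; ring
    rw [h8]
    linarith

end Vale.Agent.P097.H529
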