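import Mathlib

/-!
# P097 / case [c], (W) at records: the majorant

`rec_real`: polylogarithmic losses times `1 + V1 * √H0 ^ l` (octave `l`, `2 ^ l ≤ 1 + z`), plus
`exp (K * om ^ (-a))` with `om = c / (M + log (1 + z)) ^ 2` and `2 a < 1`, are at most
`C (1 + z) ^ (3/4)`, as soon as `H0 < 2 ^ (3/2)`.
`rec_maj`: the explicit holomorphic majorant `C (1 - i (w - u) / r) ^ (3/4)`.
-/

open Filter Topology Asymptotics

namespace Vale.Agent.P097.H529

/-- relative depth of the lateral boundary at relative distance `z` -/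
noncomputable def om (c M z : ℝ) : ℝ := c / (M + Real.log (1 + z)) ^ 2

theorem om_pos {c M z : ℝ} (hc : 0 < c) (hM : 0 < M) (hz : 0 ≤ z) : 0 < om c M z := by
  unfold om
  have : 0 ≤ Real.log (1 + z) := Real.log_nonneg (by linarith)
  positivity

theorem om_rpow {c M z : ℝ} (hc : 0 < c) (hM : 0 < M) (hz : 0 ≤ z) (N : ℝ) :
    om c M z ^ (-N) = c ^ (-N) * (M + Real.log (1 + z)) ^ (2 * N) := by
  unfold om
  have h0 : 0 ≤ Real.log (1 + z) := Real.log_nonneg (by linarith)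
  have h1 : 0 < M + Real.log (1 + z) := by linarith
  rw [Real.div_rpow hc.le (by positivity), div_eq_mul_inv, ← Real.rpow_neg (by positivity),
    neg_neg, ← Real.rpow_natCast, ← Real.rpow_mul h1.le]
  norm_num

/-- `(M + log x) ^ s ≤ C x ^ e` for `x ≥ 1` -/
theorem polylog_le {M s e : ℝ} (hM : 0 < M) (he : 0 < e) :
    ∃ C : ℝ, 0 < C ∧ ∀ x : ℝ, 1 ≤ x → (M + Real.log x) ^ s ≤ C * x ^ e := by
  by_cases hs : s ≤ 0
  · refine ⟨M ^ s, by positivity, fun x hx => ?_⟩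
    have hl : 0 ≤ Real.log x := Real.log_nonneg hx
    have h1 : (M + Real.log x) ^ s ≤ M ^ s :=
      Real.rpow_le_rpow_of_nonpos hM (by linarith) hs
    have h2 : 1 ≤ x ^ e := Real.one_le_rpow hx he.le
    have h3 : 0 < M ^ s := Real.rpow_pos_of_pos hM s
    nlinarith
  · rw [not_le] at hs
    refine ⟨(M + s / e) ^ s, by positivity, fun x hx => ?_⟩
    have hx0 : 0 < x := by linarith
    have hl : 0 ≤ Real.log x := Real.log_nonneg hx
    have h1 : Real.log x ≤ x ^ (e / s) / (e / s) := Real.log_le_rpow_div hx0.le (by positivity)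
    have h2 : 1 ≤ x ^ (e / s) := Real.one_le_rpow hx (by positivity)
    have h3 : M + Real.log x ≤ (M + s / e) * x ^ (e / s) := by
      have h4 : x ^ (e / s) / (e / s) = (s / e) * x ^ (e / s) := by
        field_simp
      rw [h4] at h1
      nlinarith
    calc (M + Real.log x) ^ s ≤ ((M + s / e) * x ^ (e / s)) ^ s :=
          Real.rpow_le_rpow (by linarith) h3 hs.le
      _ = (M + s / e) ^ s * x ^ e := by
        rw [Real.mul_rpow (by positivity) (by positivity), ← Real.rpow_mul hx0.le,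
          div_mul_cancel₀ _ hs.ne']

/-- `exp (K (M + log x) ^ t) ≤ C x ^ e` for `x ≥ 1`, `t < 1` -/
theorem exp_polylog_le {M K t e : ℝ} (hM : 0 < M) (hK : 0 ≤ K) (ht : t < 1) (he : 0 < e) :
    ∃ C : ℝ, 0 < C ∧ ∀ x : ℝ, 1 ≤ x → Real.exp (K * (M + Real.log x) ^ t) ≤ C * x ^ e := by
  -- `K y ^ t ≤ e y + B` for `y ≥ M`
  obtain ⟨B, hB⟩ : ∃ B : ℝ, ∀ y : ℝ, M ≤ y → K * y ^ t ≤ e * y + B := by
    -- threshold `Y`: `K y^(t-1) ≤ e`
    have hlim : Tendsto (fun y : ℝ => K * y ^ (t - 1)) atTop (𝓝 0) := by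
      have h1 : Tendsto (fun y : ℝ => y ^ (-(1 - t))) atTop (𝓝 0) :=
        tendsto_rpow_neg_atTop (by linarith)
      have h2 := h1.const_mul K
      rw [mul_zero] at h2
      refine h2.congr fun y => ?_
      rw [neg_sub]
    have hev : ∀ᶠ y : ℝ in atTop, K * y ^ (t - 1) < e := (tendsto_order.1 hlim).2 e he
    obtain ⟨Y, hY⟩ := eventually_atTop.1 hev
    have hcont : ContinuousOn (fun y : ℝ => K * y ^ t) (Set.Icc M (max M Y)) := by
      apply ContinuousOn.mul continuousOn_const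
      intro y hy
      exact (Real.continuousAt_rpow_const y t (Or.inl (by linarith [hy.1]))).continuousWithinAt
    obtain ⟨B, hB⟩ := (isCompact_Icc.image_of_continuousOn hcont).bddAbove
    refine ⟨max B 0, fun y hy => ?_⟩
    have hy0 : 0 < y := by linarith
    by_cases h : y ≤ max M Y
    · have h1 : K * y ^ t ≤ B := hB ⟨y, ⟨hy, h⟩, rfl⟩
      have h2 := le_max_left B 0
      have h3 : 0 < e * y := by positivity
      linarith
    · rw [not_le] at h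
      have h1 := hY y ((le_max_right M Y).trans h.le)
      have h2 : y ^ t = y ^ (t - 1) * y := by
        rw [← Real.rpow_add_one hy0.ne']; congr 1; ring
      have h3 := le_max_right B 0
      rw [h2]
      nlinarith
  refine ⟨Real.exp (e * M + B), Real.exp_pos _, fun x hx => ?_⟩
  have hx0 : 0 < x := by linarith
  have hl : 0 ≤ Real.log x := Real.log_nonneg hx
  have h1 := hB (M + Real.log x) (by linarith)
  have h2 : x ^ e = Real.exp (e * Real.log x) := by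
    rw [Real.rpow_def_of_pos hx0, mul_comm]
  rw [h2, ← Real.exp_add]
  apply Real.exp_le_exp.2
  linarith

/-- `√H0 ^ l ≤ x ^ θ` for `2 ^ l ≤ x` and `√H0 ≤ 2 ^ θ` -/
theorem sqrt_pow_le {H0 x θ : ℝ} {l : ℕ} (hθ : 0 ≤ θ) (hH : √H0 ≤ (2 : ℝ) ^ θ)
    (hl : (2 : ℝ) ^ l ≤ x) : √H0 ^ l ≤ x ^ θ := by
  calc √H0 ^ l ≤ ((2 : ℝ) ^ θ) ^ l := pow_le_pow_left₀ (Real.sqrt_nonneg _) hH l
    _ = ((2 : ℝ) ^ l) ^ θ := by
      rw [← Real.rpow_natCast, ← Real.rpow_mul (by norm_num), ← Real.rpow_natCast,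
        ← Real.rpow_mul (by norm_num), mul_comm]
    _ ≤ x ^ θ := Real.rpow_le_rpow (by positivity) hl hθ

/-- the octave bounds at a record are at most `C (1 + z) ^ (3/4)` -/
theorem rec_real {c M K N a V1 H0 : ℝ} (hc : 0 < c) (hM : 0 < M) (hK : 0 ≤ K) (ha : 2 * a < 1)
    (hV1 : 0 ≤ V1) (hH0 : 0 ≤ H0) (hH : H0 < (2 : ℝ) ^ ((3 : ℝ) / 2)) :
    ∃ C : ℝ, 0 < C ∧ ∀ z : ℝ, 0 ≤ z → ∀ l : ℕ, (2 : ℝ) ^ l ≤ 1 + z →
      K * om c M z ^ (-N) * (1 + V1 * √H0 ^ l) + Real.exp (K * om c M z ^ (-a)) ≤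
        C * (1 + z) ^ ((3 : ℝ) / 4) := by
  -- exponent `θ < 3/4` with `√H0 ≤ 2 ^ θ`
  obtain ⟨θ, hθ0, hθ, hθH⟩ : ∃ θ : ℝ, 0 ≤ θ ∧ θ < 3 / 4 ∧ √H0 ≤ (2 : ℝ) ^ θ := by
    have h1 : √H0 < (2 : ℝ) ^ ((3 : ℝ) / 4) := by
      rw [Real.sqrt_lt' (by positivity), ← Real.rpow_natCast, ← Real.rpow_mul (by norm_num)]
      norm_num
      exact hH
    set s := max (√H0) 1 with hs
    have hs1 : 1 ≤ s := le_max_right _ _
    have hs0 : 0 < s := by linarith
    have hs2 : s < (2 : ℝ) ^ ((3 : ℝ) / 4) := by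
      apply max_lt h1
      exact Real.one_lt_rpow (by norm_num) (by norm_num)
    refine ⟨Real.logb 2 s, Real.logb_nonneg (by norm_num) hs1, ?_, ?_⟩
    · rw [Real.logb_lt_iff_lt_rpow (by norm_num) hs0]
      exact hs2
    · rw [Real.rpow_logb (by norm_num) (by norm_num) hs0]
      exact le_max_left _ _
  have he : 0 < 3 / 4 - θ := by linarith
  obtain ⟨C1, hC1, h1⟩ := polylog_le (s := 2 * N) hM he
  obtain ⟨C2, hC2, h2⟩ := exp_polylog_le (K := K * c ^ (-a)) (t := 2 * a) hM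
    (mul_nonneg hK (by positivity)) ha (e := 3 / 4) (by norm_num)
  refine ⟨K * c ^ (-N) * C1 * (1 + V1) + C2, by positivity, fun z hz l hl => ?_⟩
  set x := 1 + z with hx
  have hx1 : 1 ≤ x := by linarith
  have hx0 : 0 < x := by linarith
  have h3 : om c M z ^ (-N) ≤ c ^ (-N) * (C1 * x ^ (3 / 4 - θ)) := by
    rw [om_rpow hc hM hz]
    exact mul_le_mul_of_nonneg_left (h1 x hx1) (by positivity)
  have h4 : 1 + V1 * √H0 ^ l ≤ (1 + V1) * x ^ θ := by
    have h5 := sqrt_pow_le hθ0 hθH hl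
    have h6 : 1 ≤ x ^ θ := Real.one_le_rpow hx1 hθ0
    nlinarith
  have h5 : K * om c M z ^ (-N) * (1 + V1 * √H0 ^ l) ≤
      K * c ^ (-N) * C1 * (1 + V1) * x ^ ((3 : ℝ) / 4) := by
    have h6 : x ^ ((3 : ℝ) / 4) = x ^ (3 / 4 - θ) * x ^ θ := by
      rw [← Real.rpow_add hx0]; congr 1; ring
    rw [h6]
    calc K * om c M z ^ (-N) * (1 + V1 * √H0 ^ l)
        ≤ (K * (c ^ (-N) * (C1 * x ^ (3 / 4 - θ)))) * ((1 + V1) * x ^ θ) := by
          apply mul_le_mul (mul_le_mul_of_nonneg_left h3 hK) h4 (by positivity) (by positivity)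
      _ = _ := by ring
  have h6 : Real.exp (K * om c M z ^ (-a)) ≤ C2 * x ^ ((3 : ℝ) / 4) := by
    have h7 := h2 x hx1
    rw [om_rpow hc hM hz]
    rw [mul_assoc] at h7
    exact h7
  linarith

/-- the holomorphic majorant -/
noncomputable def hmaj (C r : ℝ) (u : ℝ) (w : ℂ) : ℂ :=
  C * (1 - Complex.I * ((w - u) / r)) ^ ((3 / 4 : ℝ) : ℂ)

theorem hmaj_diff {C r u : ℝ} (hr : 0 < r) :
    DifferentiableOn ℂ (hmaj C r u) {w | -r < w.im} := by
  intro w hw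
  have hs : (1 - Complex.I * ((w - u) / r)) ∈ Complex.slitPlane := by
    left
    have : (1 - Complex.I * ((w - u) / r)).re = 1 + w.im / r := by
      have e : Complex.I * ((w - u) / r) = (1 / r : ℝ) * (Complex.I * (w - u)) := by
        push_cast; field_simp
      rw [e]
      simp [Complex.re_ofReal_mul]
      ring
    rw [this]
    have hw' : -r < w.im := hw
    have : -1 < w.im / r := by rw [lt_div_iff₀ hr]; linarith
    linarith
  apply DifferentiableAt.differentiableWithinAt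
  unfold hmaj
  have hd : DifferentiableAt ℂ (fun y : ℂ => 1 - Complex.I * ((y - u) / r)) w := by fun_prop
  exact (DifferentiableAt.cpow_const (c := ((3 / 4 : ℝ) : ℂ)) hd hs).const_mul _

theorem re_arg {r u : ℝ} (hr : 0 < r) {w : ℂ} (hw : 0 ≤ w.im) :
    1 ≤ (1 - Complex.I * ((w - u) / r)).re := by
  have e : Complex.I * ((w - u) / r) = (1 / r : ℝ) * (Complex.I * (w - u)) := by
    push_cast; field_simp
  rw [e]
  simp [Complex.re_ofReal_mul]
  positivity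

theorem norm_arg_lower {r u : ℝ} (hr : 0 < r) {w : ℂ} (hw : 0 ≤ w.im) :
    (1 + ‖w - u‖ / r) / 2 ≤ ‖1 - Complex.I * ((w - u) / r)‖ := by
  have h1 : 1 ≤ ‖1 - Complex.I * ((w - u) / r)‖ :=
    (re_arg (u := u) hr hw).trans (Complex.re_le_norm _)
  have h3 : ‖w - u‖ / r = ‖Complex.I * ((w - u) / r)‖ := by
    rw [norm_mul, Complex.norm_I, one_mul, norm_div, Complex.norm_real, Real.norm_of_nonneg hr.le]
  by_cases hb : ‖w - u‖ / r ≤ 1
  · linarith
  · -- `‖1 - iζ‖² ≥ 1 + ‖ζ‖²`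
    have h4 : 1 + (‖w - u‖ / r) ^ 2 ≤ ‖1 - Complex.I * ((w - u) / r)‖ ^ 2 := by
      rw [h3]
      set ζ := Complex.I * ((w - u) / r) with hζ
      have hre : ζ.re ≤ 0 := by
        have := re_arg (u := u) hr hw
        rw [← hζ] at this
        simp at this
        exact this
      rw [Complex.sq_norm, Complex.sq_norm, Complex.normSq_apply, Complex.normSq_apply]
      simp
      nlinarith
    have h5 : 0 ≤ ‖w - u‖ / r := by positivity
    nlinarith [norm_nonneg (1 - Complex.I * ((w - u) / r)),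
      sq_nonneg (‖w - u‖ / r - 1)]

theorem norm_arg_upper {r u : ℝ} (hr : 0 < r) {w : ℂ} :
    ‖1 - Complex.I * ((w - u) / r)‖ ≤ 1 + ‖w - u‖ / r := by
  have h3 : ‖w - u‖ / r = ‖Complex.I * ((w - u) / r)‖ := by
    rw [norm_mul, Complex.norm_I, one_mul, norm_div, Complex.norm_real, Real.norm_of_nonneg hr.le]
  rw [h3]
  calc ‖1 - Complex.I * ((w - u) / r)‖ ≤ ‖(1 : ℂ)‖ + ‖Complex.I * ((w - u) / r)‖ := norm_sub_le _ _
    _ = _ := by rw [norm_one]

theorem hmaj_re_eq {C r u : ℝ} (hr : 0 < r) {w : ℂ} (hw : 0 ≤ w.im) :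
    (hmaj C r u w).re = C * (‖1 - Complex.I * ((w - u) / r)‖ ^ ((3 : ℝ) / 4) *
      Real.cos (Complex.arg (1 - Complex.I * ((w - u) / r)) * (3 / 4))) := by
  have hne : (1 - Complex.I * ((w - u) / r)) ≠ 0 := by
    intro h
    have := re_arg (u := u) hr hw
    rw [h] at this
    simp at this
    linarith
  unfold hmaj
  rw [Complex.re_ofReal_mul, Complex.cpow_ofReal_re]

theorem cos_lower {r u : ℝ} (hr : 0 < r) {w : ℂ} (hw : 0 ≤ w.im) :
    (1 : ℝ) / 4 ≤ Real.cos (Complex.arg (1 - Complex.I * ((w - u) / r)) * (3 / 4)) := by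
  have h1 : |Complex.arg (1 - Complex.I * ((w - u) / r))| ≤ Real.pi / 2 := by
    rw [Complex.abs_arg_le_pi_div_two_iff]
    linarith [re_arg (u := u) hr hw]
  have h2 : |Complex.arg (1 - Complex.I * ((w - u) / r)) * (3 / 4)| ≤ Real.pi * (3 / 8) := by
    rw [abs_mul, abs_of_pos (by norm_num : (0 : ℝ) < 3 / 4)]
    linarith
  rw [← Real.cos_abs]
  -- cos (3π/8) ≥ 1/4 : Jordan type inequality
  have h3 : Real.cos (Real.pi * (3 / 8)) ≤
      Real.cos |Complex.arg (1 - Complex.I * ((w - u) / r)) * (3 / 4)| := by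
    apply Real.cos_le_cos_of_nonneg_of_le_pi (abs_nonneg _) _ h2
    linarith [Real.pi_pos]
  refine le_trans ?_ h3
  have h4 : Real.cos (Real.pi * (3 / 8)) = Real.sin (Real.pi / 8) := by
    rw [← Real.cos_pi_div_two_sub]
    congr 1
    ring
  rw [h4]
  have h5 := Real.mul_le_sin (x := Real.pi / 8) (by positivity) (by linarith [Real.pi_pos])
  have h6 : 2 / Real.pi * (Real.pi / 8) = 1 / 4 := by
    field_simp
    norm_num
  linarith

theorem hmaj_lower {C r u : ℝ} (hC : 0 ≤ C) (hr : 0 < r) {w : ℂ} (hw : 0 ≤ w.im) :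
    C / 8 * (1 + ‖w - u‖ / r) ^ ((3 : ℝ) / 4) ≤ (hmaj C r u w).re := by
  rw [hmaj_re_eq hr hw]
  have h1 := norm_arg_lower (u := u) hr hw
  have h0 : 0 ≤ ‖w - u‖ / r := by positivity
  have h2 : (1 + ‖w - u‖ / r) ^ ((3 : ℝ) / 4) / 2 ≤
      ‖1 - Complex.I * ((w - u) / r)‖ ^ ((3 : ℝ) / 4) := by
    calc (1 + ‖w - u‖ / r) ^ ((3 : ℝ) / 4) / 2
        ≤ (1 + ‖w - u‖ / r) ^ ((3 : ℝ) / 4) / 2 ^ ((3 : ℝ) / 4) := by
          apply div_le_div_of_nonneg_left (by positivity) (by positivity)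
          calc (2 : ℝ) ^ ((3 : ℝ) / 4) ≤ 2 ^ (1 : ℝ) :=
                Real.rpow_le_rpow_of_exponent_le (by norm_num) (by norm_num)
            _ = 2 := by norm_num
      _ = ((1 + ‖w - u‖ / r) / 2) ^ ((3 : ℝ) / 4) := by
          rw [Real.div_rpow (by linarith) (by norm_num)]
      _ ≤ _ := Real.rpow_le_rpow (by positivity) h1 (by norm_num)
  have h3 := cos_lower (u := u) hr hw
  have h4 : 0 ≤ (1 + ‖w - u‖ / r) ^ ((3 : ℝ) / 4) := by positivity
  have h5 : (1 + ‖w - u‖ / r) ^ ((3 : ℝ) / 4) / 8 ≤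
      ‖1 - Complex.I * ((w - u) / r)‖ ^ ((3 : ℝ) / 4) *
      Real.cos (Complex.arg (1 - Complex.I * ((w - u) / r)) * (3 / 4)) := by
    calc (1 + ‖w - u‖ / r) ^ ((3 : ℝ) / 4) / 8
        = ((1 + ‖w - u‖ / r) ^ ((3 : ℝ) / 4) / 2) * (1 / 4) := by ring
      _ ≤ _ := mul_le_mul h2 h3 (by norm_num) (by positivity)
  calc C / 8 * (1 + ‖w - u‖ / r) ^ ((3 : ℝ) / 4)
      = C * ((1 + ‖w - u‖ / r) ^ ((3 : ℝ) / 4) / 8) := by ring
    _ ≤ _ := mul_le_mul_of_nonneg_left h5 hC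

theorem hmaj_upper {C r u : ℝ} (hC : 0 ≤ C) (hr : 0 < r) {w : ℂ} (hw : 0 ≤ w.im) :
    (hmaj C r u w).re ≤ C * (1 + ‖w - u‖ / r) ^ ((3 : ℝ) / 4) := by
  rw [hmaj_re_eq hr hw]
  apply mul_le_mul_of_nonneg_left _ hC
  have h1 : ‖1 - Complex.I * ((w - u) / r)‖ ^ ((3 : ℝ) / 4) ≤
      (1 + ‖w - u‖ / r) ^ ((3 : ℝ) / 4) :=
    Real.rpow_le_rpow (norm_nonneg _) (norm_arg_upper hr) (by norm_num)
  have h2 := Real.cos_le_one (Complex.arg (1 - Complex.I * ((w - u) / r)) * (3 / 4))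
  calc _ ≤ ‖1 - Complex.I * ((w - u) / r)‖ ^ ((3 : ℝ) / 4) * 1 :=
        mul_le_mul_of_nonneg_left h2 (by positivity)
    _ ≤ _ := by rw [mul_one]; exact h1

/-- **the majorant at record windows** -/
theorem rec_maj {c M K N a V1 H0 : ℝ} (hc : 0 < c) (hM : 0 < M) (hK : 0 ≤ K) (ha : 2 * a < 1)
    (hV1 : 0 ≤ V1) (hH0 : 0 ≤ H0) (hH : H0 < (2 : ℝ) ^ ((3 : ℝ) / 2)) :
    ∃ C : ℝ, 0 < C ∧ ∀ r : ℝ, 0 < r → ∀ u : ℝ,
      ∃ h : ℂ → ℂ, DifferentiableOn ℂ h {w | -r < w.im} ∧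
        (∀ w : ℂ, 0 ≤ w.im → ∀ l : ℕ, (2 : ℝ) ^ l ≤ 1 + ‖w - u‖ / r →
          K * om c M (‖w - u‖ / r) ^ (-N) * (1 + V1 * √H0 ^ l) +
            Real.exp (K * om c M (‖w - u‖ / r) ^ (-a)) ≤ (h w).re) ∧
        (∀ w : ℂ, 0 ≤ w.im → (1 + ‖w - u‖ / r) ^ ((3 : ℝ) / 4) ≤ (h w).re) ∧
        (∀ w : ℂ, 0 ≤ w.im → (h w).re ≤ C * (1 + ‖w - u‖ / r) ^ ((3 : ℝ) / 4)) := by
  obtain ⟨C, hC, h1⟩ := rec_real (N := N) hc hM hK ha hV1 hH0 hH
  refine ⟨8 * (C + 1), by positivity, fun r hr u => ⟨hmaj (8 * (C + 1)) r u, hmaj_diff hr,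
    fun w hw l hl => ?_, fun w hw => ?_, fun w hw => hmaj_upper (by positivity) hr hw⟩⟩
  · have h2 := h1 (‖w - u‖ / r) (by positivity) l hl
    have h3 := hmaj_lower (C := 8 * (C + 1)) (u := u) (by positivity) hr hw
    have h4 : 0 ≤ (1 + ‖w - u‖ / r) ^ ((3 : ℝ) / 4) := by positivity
    linarith
  · have h3 := hmaj_lower (C := 8 * (C + 1)) (u := u) (by positivity) hr hw
    have h4 : 0 ≤ (1 + ‖w - u‖ / r) ^ ((3 : ℝ) / 4) := by positivity
    nlinarith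

end Vale.Agent.P097.H529
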