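import Vale.Agent.P097.H529.Sums

/-!
# P097 / block (W): the octave sums at a record window, Harnack factor `H0 < 4`

Same as `rec_oct` with `H0 < 4` instead of `H0 < 2^(3/2)`.
-/

open Finset

namespace Vale.Agent.P097.H529

open Vale.Agent.P097.H128.W

/-- the octave bounds at a record are at most `C (1 + z) ^ e`, for every `e > 0`, `√H0 ≤ 2^θ`,
`θ < e` -/
theorem rec_real4 {c M K N a V1 H0 θ e : ℝ} (hc : 0 < c) (hM : 0 < M) (hK : 0 ≤ K) (ha : 2 * a < 1)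
    (hV1 : 0 ≤ V1) (hθ0 : 0 ≤ θ) (hθ : θ < e) (hH : √H0 ≤ (2 : ℝ) ^ θ) :
    ∃ C : ℝ, 0 < C ∧ ∀ z : ℝ, 0 ≤ z → ∀ l : ℕ, (2 : ℝ) ^ l ≤ 1 + z →
      K * om c M z ^ (-N) * (1 + V1 * √H0 ^ l) + Real.exp (K * om c M z ^ (-a)) ≤
        C * (1 + z) ^ e := by
  have he : 0 < e - θ := by linarith
  have he0 : 0 < e := by linarith
  obtain ⟨C1, hC1, h1⟩ := polylog_le (s := 2 * N) hM he
  obtain ⟨C2, hC2, h2⟩ := exp_polylog_le (K := K * c ^ (-a)) (t := 2 * a) hM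
    (mul_nonneg hK (by positivity)) ha he0
  refine ⟨K * c ^ (-N) * C1 * (1 + V1) + C2, by positivity, fun z hz l hl => ?_⟩
  set x := 1 + z with hx
  have hx1 : 1 ≤ x := by linarith
  have hx0 : 0 < x := by linarith
  have h3 : om c M z ^ (-N) ≤ c ^ (-N) * (C1 * x ^ (e - θ)) := by
    rw [om_rpow hc hM hz]
    exact mul_le_mul_of_nonneg_left (h1 x hx1) (by positivity)
  have h4 : 1 + V1 * √H0 ^ l ≤ (1 + V1) * x ^ θ := by
    have h5 := sqrt_pow_le hθ0 hH hl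
    have h6 : 1 ≤ x ^ θ := Real.one_le_rpow hx1 hθ0
    nlinarith
  have h5 : K * om c M z ^ (-N) * (1 + V1 * √H0 ^ l) ≤
      K * c ^ (-N) * C1 * (1 + V1) * x ^ e := by
    have h6 : x ^ e = x ^ (e - θ) * x ^ θ := by
      rw [← Real.rpow_add hx0]; congr 1; ring
    rw [h6]
    calc K * om c M z ^ (-N) * (1 + V1 * √H0 ^ l)
        ≤ (K * (c ^ (-N) * (C1 * x ^ (e - θ)))) * ((1 + V1) * x ^ θ) := by
          apply mul_le_mul (mul_le_mul_of_nonneg_left h3 hK) h4 (by positivity) (by positivity)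
      _ = _ := by ring
  have h6 : Real.exp (K * om c M z ^ (-a)) ≤ C2 * x ^ e := by
    have h7 := h2 x hx1
    rw [om_rpow hc hM hz]
    rw [mul_assoc] at h7
    exact h7
  linarith

/-- bounds of the lateral bounds, `q = 2 ^ e < 2` -/
theorem lb_le4 {C M K N a V1 H0 : ℝ} (hC : 0 < C) (hM : 0 < M) (hK : 0 ≤ K) (hN : 0 ≤ N)
    (ha0 : 0 ≤ a) (ha : 2 * a < 1) (hV1 : 0 ≤ V1) (hH0 : 0 ≤ H0) (hH : H0 < 4) :
    ∃ B : ℝ, 0 < B ∧ ∃ q : ℝ, 1 ≤ q ∧ q < 2 ∧ ∀ (V : ℕ → ℝ) (j : ℕ),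
      max (V j) 0 ≤ V1 * √H0 ^ j → lb K C M N a V j ≤ B * q ^ j := by
  -- exponents
  obtain ⟨θ, hθ0, hθ, hθH⟩ : ∃ θ : ℝ, 0 ≤ θ ∧ θ < 1 ∧ √H0 ≤ (2 : ℝ) ^ θ := by
    have h1 : √H0 < 2 := by
      rw [Real.sqrt_lt' (by norm_num)]
      norm_num
      exact hH
    set s := max (√H0) 1 with hs
    have hs1 : 1 ≤ s := le_max_right _ _
    have hs0 : 0 < s := by linarith
    have hs2 : s < 2 := max_lt h1 (by norm_num)
    refine ⟨Real.logb 2 s, Real.logb_nonneg (by norm_num) hs1, ?_, ?_⟩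
    · rw [Real.logb_lt_iff_lt_rpow (by norm_num) hs0, Real.rpow_one]
      exact hs2
    · rw [Real.rpow_logb (by norm_num) (by norm_num) hs0]
      exact le_max_left _ _
  set e : ℝ := (1 + θ) / 2 with he
  have he1 : θ < e := by rw [he]; linarith
  have he2 : e < 1 := by rw [he]; linarith
  have he0 : 0 < e := by linarith
  have hl2 : 0 < Real.log 2 := Real.log_pos (by norm_num)
  have hl2' : Real.log 2 < 1 := by
    have := Real.log_two_lt_d9; linarith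
  set c : ℝ := Real.log 2 ^ 2 / C with hc
  have hc0 : 0 < c := by positivity
  obtain ⟨B, hB, h1⟩ := rec_real4 (N := N) (e := e) hc0 hM hK ha hV1 hθ0 he1 hθH
  refine ⟨B, hB, (2 : ℝ) ^ e, Real.one_le_rpow (by norm_num) he0.le, ?_, fun V j hV => ?_⟩
  · calc (2 : ℝ) ^ e < 2 ^ (1 : ℝ) := Real.rpow_lt_rpow_of_exponent_lt (by norm_num) he2
      _ = 2 := by norm_num
  set z : ℝ := 2 ^ j - 1 with hz
  have hz1 : 1 + z = 2 ^ j := by rw [hz]; ring
  have hz0 : 0 ≤ z := by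
    have : (1 : ℝ) ≤ 2 ^ j := one_le_pow₀ (by norm_num)
    rw [hz]; linarith
  have hlog : Real.log (1 + z) = j * Real.log 2 := by rw [hz1, Real.log_pow]
  have hom : ∀ s : ℝ, 0 ≤ s → (C * (M + j) ^ 2) ^ s ≤ om c M z ^ (-s) := by
    intro s hs
    have hj : (0 : ℝ) ≤ j := Nat.cast_nonneg j
    have e1 : om c M z ^ (-s) = (C * ((M + j * Real.log 2) / Real.log 2) ^ 2) ^ s := by
      rw [Real.rpow_neg (om_pos hc0 hM hz0).le, ← Real.inv_rpow (om_pos hc0 hM hz0).le]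
      congr 1
      unfold om
      rw [hlog, hc]
      have : 0 < M + j * Real.log 2 := by positivity
      field_simp
    rw [e1]
    apply Real.rpow_le_rpow (by positivity) _ hs
    apply mul_le_mul_of_nonneg_left _ hC.le
    apply pow_le_pow_left₀ (by positivity)
    rw [le_div_iff₀ hl2]
    nlinarith
  have h2 := h1 z hz0 j (by rw [hz1])
  have e3 : (1 + z) ^ e = ((2 : ℝ) ^ e) ^ j := by
    rw [hz1, ← Real.rpow_natCast, ← Real.rpow_mul (by norm_num), ← Real.rpow_natCast,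
      ← Real.rpow_mul (by norm_num), mul_comm]
  rw [← e3]
  refine le_trans ?_ h2
  unfold lb
  have h3 : 0 ≤ max (V j) 0 := le_max_right _ _
  have h4 := hom N hN
  have h5 := hom a ha0
  have h6 : 0 ≤ om c M z ^ (-N) := Real.rpow_nonneg (om_pos hc0 hM hz0).le _
  have h7 : (0 : ℝ) ≤ (C * (M + j) ^ 2) ^ N := by positivity
  gcongr

/-- geometric sum -/
theorem geo_sum4 {q : ℝ} (hq1 : 1 ≤ q) (hq2 : q < 2) (n : ℕ) :
    ∑ j ∈ range n, q ^ (j + 1) * (1 / 2 : ℝ) ^ j ≤ q * (1 - q / 2)⁻¹ := by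
  have h1 : ∀ j : ℕ, q ^ (j + 1) * (1 / 2 : ℝ) ^ j = q * (q / 2) ^ j := by
    intro j
    rw [pow_succ, div_pow, div_pow, one_pow]
    ring
  have h2 : ∑ j ∈ range n, (q / 2) ^ j ≤ (1 - q / 2)⁻¹ := by
    have hsum := (summable_geometric_of_lt_one (r := q / 2) (by positivity) (by linarith))
    rw [← tsum_geometric_of_lt_one (by positivity) (by linarith)]
    exact hsum.sum_le_tsum _ (fun _ _ => by positivity)
  calc ∑ j ∈ range n, q ^ (j + 1) * (1 / 2 : ℝ) ^ j = q * ∑ j ∈ range n, (q / 2) ^ j := by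
        rw [Finset.mul_sum]; exact Finset.sum_congr rfl fun j _ => h1 j
    _ ≤ _ := mul_le_mul_of_nonneg_left h2 (by linarith)

/-- **the octave sums at a record window**, `H0 < 4` -/
theorem rec_oct4 {C M K N a V0 H0 L : ℝ} (hC : 0 < C) (hM : 0 < M) (hK : 0 ≤ K) (hN : 0 ≤ N)
    (ha0 : 0 ≤ a) (ha : 2 * a < 1) (hV0 : 0 < V0) (hL : 1 ≤ L) (hH0 : 0 ≤ H0) (hH : H0 < 4) :
    ∃ B : ℝ, 0 < B ∧ ∃ q : ℝ, 1 ≤ q ∧ q < 2 ∧ ∀ (V : ℕ → ℝ) (n : ℕ),
      Ch (fun i => V (n - i)) V0 H0 0 n → V 0 ≤ V0 → (∀ j ≤ n, |V j| ≤ L * |V 0| + V0) →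
      (∀ j ≤ n, lb K C M N a V j ≤ B * q ^ j) ∧
      ∀ A : ℝ, 0 ≤ A → ∀ f : ℕ → ℝ, (∀ j < n, f j ≤ lb K C M N a V j) →
        f n ≤ lb K C M N a V n + A →
        f 0 + 2 * ∑ j ∈ range n, f (j + 1) * (1 / 2 : ℝ) ^ j ≤ B + 4 * (1 / 2 : ℝ) ^ n * A := by
  obtain ⟨B, hB, q, hq1, hq2, h1⟩ := lb_le4 (V1 := (L + 1) * V0) hC hM hK hN ha0 ha
    (by positivity) hH0 hH
  have hqi : 0 < (1 - q / 2)⁻¹ := inv_pos.2 (by linarith)
  set T : ℝ := q * (1 - q / 2)⁻¹ with hT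
  have hT0 : 0 < T := by positivity
  refine ⟨B * (1 + 2 * T), by positivity, q, hq1, hq2, fun V n hch h0 hr => ?_⟩
  have h2 : ∀ j ≤ n, lb K C M N a V j ≤ B * q ^ j :=
    fun j hj => h1 V j (rec_pos hL hch h0 hr j hj)
  refine ⟨fun j hj => (h2 j hj).trans ?_, fun A hA f hf hfn => ?_⟩
  · have : 0 ≤ q ^ j := by positivity
    nlinarith [mul_nonneg (mul_nonneg hB.le (by positivity : (0:ℝ) ≤ 2 * T)) this]
  have hsum : 2 * ∑ j ∈ range n, (B * q ^ (j + 1)) * (1 / 2 : ℝ) ^ j ≤ 2 * T * B := by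
    have h3 := geo_sum4 hq1 hq2 n
    have h4 : ∑ j ∈ range n, (B * q ^ (j + 1)) * (1 / 2 : ℝ) ^ j =
        B * ∑ j ∈ range n, q ^ (j + 1) * (1 / 2 : ℝ) ^ j := by
      rw [Finset.mul_sum]; exact Finset.sum_congr rfl fun j _ => by ring
    rw [h4]
    nlinarith
  rcases Nat.eq_zero_or_pos n with hn | hn
  · subst hn
    have h3 := h2 0 le_rfl
    simp only [range_zero, Finset.sum_empty, mul_zero, add_zero, pow_zero, mul_one] at h3 ⊢
    nlinarith [mul_pos hB hT0]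
  · obtain ⟨k, rfl⟩ : ∃ k, n = k + 1 := ⟨n - 1, by omega⟩
    rw [Finset.sum_range_succ] at hsum ⊢
    have h3 : f 0 ≤ B := by
      have := (hf 0 hn).trans (h2 0 (Nat.zero_le _))
      simpa using this
    have h4 : ∑ j ∈ range k, f (j + 1) * (1 / 2 : ℝ) ^ j ≤
        ∑ j ∈ range k, (B * q ^ (j + 1)) * (1 / 2 : ℝ) ^ j := by
      apply Finset.sum_le_sum
      intro j hj
      rw [Finset.mem_range] at hj
      apply mul_le_mul_of_nonneg_right _ (by positivity)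
      exact (hf (j + 1) (by omega)).trans (h2 (j + 1) (by omega))
    have h5 : f (k + 1) * (1 / 2 : ℝ) ^ k ≤
        (B * q ^ (k + 1)) * (1 / 2 : ℝ) ^ k + (1 / 2 : ℝ) ^ k * A := by
      have h6 : f (k + 1) ≤ B * q ^ (k + 1) + A :=
        hfn.trans (by linarith [h2 (k + 1) le_rfl])
      have h7 : (0 : ℝ) ≤ (1 / 2 : ℝ) ^ k := by positivity
      nlinarith [mul_le_mul_of_nonneg_right h6 h7]
    have h8 : 4 * (1 / 2 : ℝ) ^ (k + 1) * A = 2 * ((1 / 2 : ℝ) ^ k * A) := by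
      rw [pow_succ]; ring
    rw [h8]
    linarith

end Vale.Agent.P097.H529
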