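import Vale.Agent.P097.H226.Major

/-!
# P097 / case [c] / row W-THIN, part A: the majorant with a negative peak

`bq R q ζ = (R / (R - i ζ)) ^ q`: real part at least `1/2` near `0`, norm at most `(R / |ζ|) ^ q`.
-/

open Finset Complex Metric Set

namespace Vale.Agent.P097.H529

open Vale.Agent.P097.H226

/-- `‖w ^ q - 1‖ ≤ (1 + ‖w - 1‖) ^ q - 1` -/
theorem norm_pow_sub_one (w : ℂ) (q : ℕ) : ‖w ^ q - 1‖ ≤ (1 + ‖w - 1‖) ^ q - 1 := by
  induction q with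
  | zero => simp
  | succ q ih =>
    have h1 : w ^ (q + 1) - 1 = w * (w ^ q - 1) + (w - 1) := by ring
    have h2 : ‖w‖ ≤ 1 + ‖w - 1‖ := by
      have : w = 1 + (w - 1) := by ring
      calc ‖w‖ = ‖1 + (w - 1)‖ := by rw [← this]
        _ ≤ ‖(1 : ℂ)‖ + ‖w - 1‖ := norm_add_le _ _
        _ = 1 + ‖w - 1‖ := by simp
    have h0 : 0 ≤ ‖w - 1‖ := norm_nonneg _
    rw [h1]
    calc ‖w * (w ^ q - 1) + (w - 1)‖ ≤ ‖w * (w ^ q - 1)‖ + ‖w - 1‖ := norm_add_le _ _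
      _ = ‖w‖ * ‖w ^ q - 1‖ + ‖w - 1‖ := by rw [norm_mul]
      _ ≤ (1 + ‖w - 1‖) * ((1 + ‖w - 1‖) ^ q - 1) + ‖w - 1‖ := by gcongr
      _ = (1 + ‖w - 1‖) ^ (q + 1) - 1 := by ring

/-- the peak function -/
noncomputable def bq (R : ℝ) (q : ℕ) (ζ : ℂ) : ℂ := ((R : ℂ) / (R - I * ζ)) ^ q

theorem normSq_den {R : ℝ} {ζ : ℂ} :
    ‖(R : ℂ) - I * ζ‖ ^ 2 = (R + ζ.im) ^ 2 + ζ.re ^ 2 := by
  rw [← Complex.normSq_eq_norm_sq, normSq_apply]
  simp only [sub_re, sub_im, mul_re, mul_im, I_re, I_im, ofReal_re, ofReal_im]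
  ring

theorem le_den {R : ℝ} (hR : 0 < R) {ζ : ℂ} (hζ : 0 ≤ ζ.im) : R ≤ ‖(R : ℂ) - I * ζ‖ := by
  have h := normSq_den (R := R) (ζ := ζ)
  have h0 := norm_nonneg ((R : ℂ) - I * ζ)
  nlinarith [sq_nonneg ζ.re, mul_nonneg hR.le hζ]

theorem norm_le_den {R : ℝ} (hR : 0 < R) {ζ : ℂ} (hζ : 0 ≤ ζ.im) : ‖ζ‖ ≤ ‖(R : ℂ) - I * ζ‖ := by
  have h := normSq_den (R := R) (ζ := ζ)
  have h0 := norm_nonneg ((R : ℂ) - I * ζ)
  have h1 := norm_sq_eq ζ
  have h2 := norm_nonneg ζ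
  nlinarith [mul_nonneg hR.le hζ]

theorem bq_norm_le_one {R : ℝ} (hR : 0 < R) {q : ℕ} {ζ : ℂ} (hζ : 0 ≤ ζ.im) : ‖bq R q ζ‖ ≤ 1 := by
  unfold bq
  rw [norm_pow, norm_div, Complex.norm_real, Real.norm_eq_abs, abs_of_pos hR]
  apply pow_le_one₀ (by positivity)
  have := le_den hR hζ
  rw [div_le_one (by linarith)]
  exact this

theorem bq_norm_le {R : ℝ} (hR : 0 < R) {q : ℕ} {ζ : ℂ} (hζ : 0 ≤ ζ.im) (h0 : 0 < ‖ζ‖) :
    ‖bq R q ζ‖ ≤ (R / ‖ζ‖) ^ q := by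
  unfold bq
  rw [norm_pow, norm_div, Complex.norm_real, Real.norm_eq_abs, abs_of_pos hR]
  have := norm_le_den hR hζ
  gcongr

theorem bq_diff {R : ℝ} (hR : 0 < R) {q : ℕ} : DifferentiableOn ℂ (bq R q) {ζ : ℂ | -R < ζ.im} := by
  intro ζ hζ
  have h := den_ne hζ
  unfold bq
  apply DifferentiableAt.differentiableWithinAt
  fun_prop (disch := exact h)

/-- the real part near `0` -/
theorem half_le_bq {R : ℝ} (hR : 0 < R) {q : ℕ} (hq : 0 < q) {ζ : ℂ} (hζ : 0 ≤ ζ.im)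
    (h : ‖ζ‖ ≤ R / (8 * q)) : 1 / 2 ≤ (bq R q ζ).re := by
  have hq' : (1 : ℝ) ≤ q := by exact_mod_cast hq
  have hd := le_den hR hζ
  have hd0 : 0 < ‖(R : ℂ) - I * ζ‖ := by linarith
  have hdne : (R : ℂ) - I * ζ ≠ 0 := norm_pos_iff.mp hd0
  set w : ℂ := (R : ℂ) / (R - I * ζ) with hw
  have h1 : w - 1 = I * ζ / (R - I * ζ) := by
    rw [hw]
    field_simp
    ring
  have h2 : ‖w - 1‖ ≤ 1 / (8 * q) := by
    rw [h1, norm_div, norm_mul, Complex.norm_I, one_mul, div_le_div_iff₀ hd0 (by positivity)]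
    rw [le_div_iff₀ (by positivity)] at h
    linarith
  have h3 : (1 + ‖w - 1‖) ^ q ≤ 8 / 7 := by
    calc (1 + ‖w - 1‖) ^ q ≤ (1 + 1 / (8 * q)) ^ q := by gcongr
      _ ≤ (Real.exp (1 / (8 * q))) ^ q := by
          gcongr
          have := Real.add_one_le_exp (1 / (8 * q : ℝ))
          linarith
      _ = Real.exp (1 / 8) := by
          rw [← Real.exp_nat_mul]
          congr 1
          field_simp
      _ ≤ 8 / 7 := by
          have := Real.exp_bound_div_one_sub_of_interval (x := (1 / 8 : ℝ)) (by norm_num)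
            (by norm_num)
          norm_num at this ⊢
          exact this
  have h4 := norm_pow_sub_one w q
  have h5 : |(w ^ q - 1).re| ≤ ‖w ^ q - 1‖ := Complex.abs_re_le_norm _
  have h6 : (w ^ q - 1).re = (w ^ q).re - 1 := by simp
  rw [h6] at h5
  have h7 := (abs_le.mp (h5.trans (h4.trans (sub_le_sub_right h3 1)))).1
  show 1 / 2 ≤ (w ^ q).re
  linarith

/-- **(TH1)** the thin majorant: octave data `a` (as in `H226.mj`), height `H` of the peak -/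
noncomputable def tm (r : ℝ) (a : ℕ → ℝ) (n : ℕ) (R : ℝ) (q : ℕ) (c : ℝ) (ζ : ℂ) : ℂ :=
  mj r a n ζ - c * bq R q ζ

theorem tm_re {r : ℝ} {a : ℕ → ℝ} {n : ℕ} {R : ℝ} {q : ℕ} {c : ℝ} {ζ : ℂ} :
    (tm r a n R q c ζ).re = (mj r a n ζ).re - c * (bq R q ζ).re := by
  unfold tm
  rw [Complex.sub_re, Complex.re_ofReal_mul]

theorem mj_diff {r : ℝ} (hr : 0 < r) {a : ℕ → ℝ} {n : ℕ} :
    DifferentiableOn ℂ (mj r a n) {ζ : ℂ | -r < ζ.im} := by
  intro ζ hζ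
  unfold mj
  apply DifferentiableAt.differentiableWithinAt
  apply DifferentiableAt.const_add
  apply DifferentiableAt.fun_sum
  intro k _
  apply DifferentiableAt.const_mul
  have hR : 0 < 2 ^ k * r := by positivity
  refine (pc_diff hR).differentiableAt
    ((isOpen_lt continuous_const continuous_im).mem_nhds ?_)
  have hζ' : -r < ζ.im := hζ
  have h1 : r ≤ 2 ^ k * r := by
    have : (1 : ℝ) ≤ 2 ^ k := one_le_pow₀ (by norm_num)
    nlinarith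
  show -(2 ^ k * r) < ζ.im
  linarith

theorem tm_diff {r : ℝ} (hr : 0 < r) {a : ℕ → ℝ} {n : ℕ} {R : ℝ} (hR : r ≤ R) {q : ℕ} {c : ℝ} :
    DifferentiableOn ℂ (tm r a n R q c) {ζ : ℂ | -r < ζ.im} := by
  unfold tm
  refine (mj_diff hr).sub (((bq_diff (lt_of_lt_of_le hr hR)).mono ?_).const_mul _)
  intro ζ hζ
  have hζ' : -r < ζ.im := hζ
  show -R < ζ.im
  linarith

/-- **(TH1)**, summary. `v` is the height `- log |f|` at the boundary points `S`; at octave `k` it is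
at least `H κ 2^(-qk)` minus the octave datum. Then `- v ≤ Re g` on `S` and `Re g` is very negative
at the targets. -/
theorem thin_major {r X H κ : ℝ} (hr : 0 < r) (hX : 1 ≤ X) (hH : 0 ≤ H) (hκ : 0 ≤ κ) {q : ℕ}
    (hq : 0 < q) {a : ℕ → ℝ} (ha : ∀ k, 0 ≤ a k) (n : ℕ) :
    ∃ g : ℂ → ℂ, DifferentiableOn ℂ g {ζ : ℂ | -r < ζ.im} ∧
      (∀ ζ : ℂ, 0 ≤ ζ.im → ∀ v : ℝ, (H * κ - a 0 ≤ v ∨ ∃ k < n, 2 ^ k * r ≤ ‖ζ‖ ∧
        H * (κ / 2 ^ (q * k)) - (a 0 + a (k + 1)) ≤ v) → - v ≤ (g ζ).re) ∧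
      ∀ ζ : ℂ, 0 ≤ ζ.im → ‖ζ‖ ≤ X * r →
        (g ζ).re ≤ a 0 + 2 * X * ∑ k ∈ range n, a (k + 1) * (1 / 2) ^ k -
          H * κ / (2 * (8 * q * X) ^ q) := by
  have hq' : (1 : ℝ) ≤ q := by exact_mod_cast hq
  set R : ℝ := 8 * q * X * r with hRdef
  have hqX : (1 : ℝ) ≤ 8 * q * X := by nlinarith
  have hqX0 : (0 : ℝ) < 8 * q * X := by linarith
  have hrR : r ≤ R := by rw [hRdef]; nlinarith
  have hR : 0 < R := lt_of_lt_of_le hr hrR
  set c : ℝ := H * κ / (8 * q * X) ^ q with hc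
  have hpow1 : (1 : ℝ) ≤ (8 * q * X) ^ q := one_le_pow₀ hqX
  have hc0 : 0 ≤ c := by rw [hc]; positivity
  have hcle : c ≤ H * κ := by
    rw [hc]
    exact div_le_self (by positivity) hpow1
  refine ⟨tm r a n R q c, tm_diff hr hrR, ?_, ?_⟩
  · intro ζ hζ v hv
    rw [tm_re]
    rcases hv with hv | ⟨k, hk, hk', hv⟩
    · have h1 := mj_lower0 hr ha (n := n) hζ
      have h2 : (bq R q ζ).re ≤ 1 :=
        (Complex.re_le_norm _).trans (bq_norm_le_one hR hζ)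
      have h3 : c * (bq R q ζ).re ≤ H * κ := by
        calc c * (bq R q ζ).re ≤ c * 1 := by gcongr
          _ ≤ H * κ := by rw [mul_one]; exact hcle
      linarith
    · have h1 := mj_lower hr ha hζ hk hk'
      have hζ0 : 0 < ‖ζ‖ := lt_of_lt_of_le (by positivity) hk'
      have h2 : (bq R q ζ).re ≤ (R / ‖ζ‖) ^ q :=
        (Complex.re_le_norm _).trans (bq_norm_le hR hζ hζ0)
      have h3 : (R / ‖ζ‖) ^ q ≤ (8 * q * X / 2 ^ k) ^ q := by
        apply pow_le_pow_left₀ (by positivity)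
        rw [div_le_div_iff₀ hζ0 (by positivity), hRdef]
        calc 8 * q * X * r * 2 ^ k = 8 * q * X * (2 ^ k * r) := by ring
          _ ≤ 8 * q * X * ‖ζ‖ := by gcongr
      have h4 : c * (bq R q ζ).re ≤ H * (κ / 2 ^ (q * k)) := by
        calc c * (bq R q ζ).re ≤ c * (8 * q * X / 2 ^ k) ^ q := by
              gcongr
              exact h2.trans h3
          _ = H * (κ / 2 ^ (q * k)) := by
              rw [hc, div_pow, ← pow_mul, mul_comm k q]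
              field_simp
      linarith
  · intro ζ hζ hζX
    rw [tm_re]
    have h1 := mj_upper hr ha (n := n) hζ
    have h2 : 1 / 2 ≤ (bq R q ζ).re := by
      apply half_le_bq hR hq hζ
      rw [hRdef, le_div_iff₀ (by positivity)]
      nlinarith
    have hS : 0 ≤ ∑ k ∈ range n, a (k + 1) * (1 / 2 : ℝ) ^ k :=
      Finset.sum_nonneg fun k _ => mul_nonneg (ha _) (by positivity)
    have h3 : 2 * (‖ζ‖ / r) * ∑ k ∈ range n, a (k + 1) * (1 / 2 : ℝ) ^ k ≤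
        2 * X * ∑ k ∈ range n, a (k + 1) * (1 / 2 : ℝ) ^ k := by
      gcongr
      rw [div_le_iff₀ hr]
      exact hζX
    have h4 : H * κ / (2 * (8 * q * X) ^ q) = c * (1 / 2) := by
      rw [hc]
      field_simp
    have h5 : c * (1 / 2) ≤ c * (bq R q ζ).re := by gcongr
    linarith

end Vale.Agent.P097.H529
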